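import Vale.Agent.P207.H253.Ell2

/-!
# P207/H253: rapid decay gives smoothness; the theorem `ell` (row FOURIER). Mathlib only.
-/

open Real MeasureTheory Set Filter Metric Function FourierTransform
open scoped ENNReal Topology ContDiff RealInnerProductSpace

namespace Vale.Agent.P207.H253

variable {E : Type*} [NormedAddCommGroup E] [InnerProductSpace ℝ E] [FiniteDimensional ℝ E]
  [MeasurableSpace E] [BorelSpace E]

/-- rapid decay of the Fourier transform of a continuous compactly supported function -/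
theorem smooth_of_decay {f : E → ℂ} (hf : Continuous f) (hc : HasCompactSupport f)
    (hd : ∀ s : ℕ, ∃ C : ℝ, 0 ≤ C ∧ ∀ ζ : E, 1 ≤ ‖ζ‖ → ‖𝓕 f ζ‖ ≤ C * (‖ζ‖ ^ s)⁻¹) :
    ContDiff ℝ ∞ f := by
  have hi : Integrable f := hf.integrable_of_hasCompactSupport hc
  have hFc : Continuous (𝓕 f) := by
    exact VectorFourier.fourierIntegral_continuous continuous_fourierChar
      (innerSL ℝ).continuous₂ hi
  obtain ⟨M, hM⟩ := (isCompact_closedBall (0 : E) 1).exists_bound_of_continuousOn
    (f := 𝓕 f) hFc.continuousOn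
  set d := Module.finrank ℝ E with hd'
  have hmaj : ∀ n : ℕ, Integrable fun ζ : E => ‖ζ‖ ^ n * ‖𝓕 f ζ‖ := by
    intro n
    obtain ⟨C, hC, hCb⟩ := hd (n + (d + 1))
    have h1 : Integrable fun ζ : E => ((C + |M|) * 2 ^ (d + 1)) * (1 + ‖ζ‖) ^ (-((d : ℝ) + 1)) :=
      (integrable_one_add_norm (by linarith)).const_mul _
    refine h1.mono' (by fun_prop) (Eventually.of_forall fun ζ => ?_)
    rw [Real.norm_of_nonneg (by positivity)]
    have hz0 := norm_nonneg ζ
    have e1 : (1 + ‖ζ‖) ^ (-((d : ℝ) + 1)) = ((1 + ‖ζ‖) ^ (d + 1))⁻¹ := by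
      rw [Real.rpow_neg (by positivity), ← Real.rpow_natCast]
      push_cast
      rfl
    rw [e1]
    rcases le_or_gt 1 ‖ζ‖ with h | h
    · have h2 := hCb ζ h
      have hz : 0 < ‖ζ‖ := by linarith
      have h3 : (1 + ‖ζ‖) ^ (d + 1) ≤ 2 ^ (d + 1) * ‖ζ‖ ^ (d + 1) := by
        rw [← mul_pow]
        exact pow_le_pow_left₀ (by positivity) (by linarith) _
      calc ‖ζ‖ ^ n * ‖𝓕 f ζ‖ ≤ ‖ζ‖ ^ n * (C * (‖ζ‖ ^ (n + (d + 1)))⁻¹) := by gcongr
        _ = C * (‖ζ‖ ^ (d + 1))⁻¹ := by
            rw [pow_add]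
            field_simp
        _ ≤ C * (2 ^ (d + 1) * ((1 + ‖ζ‖) ^ (d + 1))⁻¹) := by
            gcongr
            rw [inv_le_iff_one_le_mul₀ (by positivity)]
            rw [mul_assoc, mul_comm (((1 + ‖ζ‖) ^ (d + 1))⁻¹), ← mul_assoc,
              ← div_eq_mul_inv, le_div_iff₀ (by positivity), one_mul]
            exact h3
        _ ≤ (C + |M|) * 2 ^ (d + 1) * ((1 + ‖ζ‖) ^ (d + 1))⁻¹ := by
            have : 0 ≤ |M| * 2 ^ (d + 1) * ((1 + ‖ζ‖) ^ (d + 1))⁻¹ := by positivity
            nlinarith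
    · have h2 : ‖𝓕 f ζ‖ ≤ |M| := (hM ζ (by rw [mem_closedBall_zero_iff]; exact h.le)).trans
        (le_abs_self M)
      have h3 : 1 ≤ 2 ^ (d + 1) * ((1 + ‖ζ‖) ^ (d + 1))⁻¹ := by
        rw [← div_eq_mul_inv, one_le_div (by positivity)]
        exact pow_le_pow_left₀ (by positivity) (by linarith) _
      calc ‖ζ‖ ^ n * ‖𝓕 f ζ‖ ≤ 1 * |M| := by
            have : ‖ζ‖ ^ n ≤ 1 := pow_le_one₀ hz0 h.le
            gcongr
        _ ≤ (C + |M|) * (2 ^ (d + 1) * ((1 + ‖ζ‖) ^ (d + 1))⁻¹) := by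
            have := abs_nonneg M
            nlinarith
        _ = _ := by ring
  have hFi : Integrable (𝓕 f) := by
    have h1 := hmaj 0
    simp only [pow_zero, one_mul] at h1
    rwa [integrable_norm_iff hFc.aestronglyMeasurable] at h1
  have hinv : 𝓕⁻ (𝓕 f) = f := hf.fourierInv_fourier_eq hi hFi
  have hsm : ContDiff ℝ ∞ (𝓕 (𝓕 f)) := Real.contDiff_fourier (N := ⊤) fun n _ => hmaj n
  have h2 : f = fun x => 𝓕 (𝓕 f) (-x) := by
    funext x
    rw [← Real.fourierInv_eq_fourier_neg, hinv]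
  rw [h2]
  exact hsm.comp contDiff_neg

/-- continuity of the cut-off function -/
theorem cont_cut {W : Type*} [NormedAddCommGroup W] [NormedSpace ℝ W] {χ : E → ℝ}
    (hχ : Continuous χ) {U : Set E} (hU : IsOpen U)
    (hs : tsupport χ ⊆ U) {F : E → W} (hF : ContinuousOn F U) :
    Continuous (fun x => χ x • F x) := by
  rw [continuous_iff_continuousAt]
  intro x
  by_cases hx : x ∈ tsupport χ
  · exact hχ.continuousAt.smul (hF.continuousAt (hU.mem_nhds (hs hx)))
  · have h1 : (fun x => χ x • F x) =ᶠ[𝓝 x] fun _ => 0 := by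
      filter_upwards [(isClosed_tsupport χ).isOpen_compl.mem_nhds hx] with y hy
      rw [image_eq_zero_of_notMem_tsupport hy, zero_smul]
    exact continuousAt_const.congr h1.symm

/-- the components of the cut-off function are smooth -/
theorem smooth_comp {u : E → E} {U : Set E} (hU : IsOpen U) (hu : ContinuousOn u U)
    (hD : ∀ s, Dec u U s) {χ : E → ℝ} (hχ : ContDiff ℝ ∞ χ) (hc : HasCompactSupport χ)
    (hs : tsupport χ ⊆ U) (e : E) : ContDiff ℝ ∞ fun x => ⟪e, χ x • u x⟫ := by
  have hcc := cont_cut hχ.continuous hU hs hu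
  have hi : Integrable (fun x => χ x • u x) := by
    refine hcc.integrable_of_hasCompactSupport ?_
    exact hc.smul_right
  set f : E → ℂ := fun x => ((⟪e, χ x • u x⟫ : ℝ) : ℂ) with hf
  have hfc : Continuous f := Complex.continuous_ofReal.comp (continuous_const.inner hcc)
  have hfs : HasCompactSupport f := by
    refine HasCompactSupport.intro hc.isCompact fun x hx => ?_
    rw [hf]
    simp only
    rw [image_eq_zero_of_notMem_tsupport hx, zero_smul, inner_zero_right, Complex.ofReal_zero]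
  have hsm : ContDiff ℝ ∞ f := by
    refine smooth_of_decay hfc hfs fun s => ?_
    obtain ⟨C, hC, hCb⟩ := hD s χ hχ hc hs
    refine ⟨2 * ‖e‖ * C, by positivity, fun ζ hζ => ?_⟩
    have key : 𝓕 f ζ = ((⟪e, ∫ x, tg 0 ζ x • χ x • u x⟫ : ℝ) : ℂ) +
        Complex.I * ((⟪e, ∫ x, tg (π / 2) ζ x • χ x • u x⟫ : ℝ) : ℂ) := by
      have hti : ∀ a : ℝ, Integrable (fun x => tg a ζ x • χ x • u x) := by
        intro a
        refine Continuous.integrable_of_hasCompactSupport
          ((contDiff_tg a ζ (n := ∞)).continuous.smul hcc) ?_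
        refine HasCompactSupport.intro hc.isCompact fun x hx => ?_
        rw [image_eq_zero_of_notMem_tsupport hx, zero_smul, smul_zero]
      have h1 : ∀ a : ℝ, ((⟪e, ∫ x, tg a ζ x • χ x • u x⟫ : ℝ) : ℂ) =
          ∫ x, ((tg a ζ x : ℂ) * f x) := by
        intro a
        have h2 := (innerSL ℝ e).integral_comp_comm (hti a)
        simp only [innerSL_apply_apply] at h2
        rw [← h2, ← integral_complex_ofReal]
        refine integral_congr_ae (Eventually.of_forall fun x => ?_)
        simp only [hf]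
        rw [real_inner_smul_right e (χ x • u x) (tg a ζ x)]
        push_cast
        rfl
      have h3 : ∀ a : ℝ, Integrable fun x => ((tg a ζ x : ℂ) * f x) := by
        intro a
        refine Continuous.integrable_of_hasCompactSupport
          ((Complex.continuous_ofReal.comp (contDiff_tg a ζ (n := ∞)).continuous).mul hfc) ?_
        exact hfs.mul_left
      rw [h1 0, h1 (π / 2), ← integral_const_mul, ← integral_add (h3 0) ((h3 (π / 2)).const_mul _),
        Real.fourier_eq']
      refine integral_congr_ae (Eventually.of_forall fun x => ?_)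
      simp only [smul_eq_mul]
      have h4 : Complex.exp ((↑(-2 * π * ⟪x, ζ⟫) * Complex.I)) =
          (tg 0 ζ x : ℂ) + Complex.I * (tg (π / 2) ζ x : ℂ) := by
        rw [Complex.exp_mul_I]
        unfold tg
        rw [add_zero, Real.cos_add_pi_div_two, ← Complex.ofReal_cos, ← Complex.ofReal_sin]
        have e5 : -2 * π * ⟪x, ζ⟫ = -(2 * π * ⟪x, ζ⟫) := by ring
        rw [e5, Real.cos_neg, Real.sin_neg]
        ring
      rw [h4]
      ring
    rw [key]
    refine (norm_add_le _ _).trans ?_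
    rw [norm_mul, Complex.norm_I, one_mul, Complex.norm_real, Complex.norm_real]
    have b0 := (norm_inner_le_norm (𝕜 := ℝ) e (∫ x, tg 0 ζ x • χ x • u x)).trans
      (mul_le_mul_of_nonneg_left (hCb 0 ζ hζ) (norm_nonneg e))
    have b1 := (norm_inner_le_norm (𝕜 := ℝ) e (∫ x, tg (π / 2) ζ x • χ x • u x)).trans
      (mul_le_mul_of_nonneg_left (hCb (π / 2) ζ hζ) (norm_nonneg e))
    linarith
  have h5 : (fun x => ⟪e, χ x • u x⟫) = fun x => Complex.reCLM (f x) := by
    funext x
    simp [hf]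
  rw [h5]
  exact Complex.reCLM.contDiff.comp hsm

/-- **row FOURIER**: approximate first order systems without real characteristics -/
theorem ell {u : E → E} {U : Set E} (hU : IsOpen U) (hu : ContinuousOn u U)
    {J : Submodule ℝ (E →L[ℝ] E)} (hJ : ∀ ζ w : E, ζ ≠ 0 → w ≠ 0 → rk ζ w ∉ J)
    {θ t₀ C : ℝ} {Ck : ℕ → ℝ} (hθ : 0 < θ) (ht₀ : 0 < t₀) (hC : 0 ≤ C)
    (hS : ∀ t, 0 < t → t < t₀ → Sys u U J θ C Ck t) : ContDiffOn ℝ ∞ u U := by
  have hD : ∀ s, Dec u U s := by
    intro s
    induction s with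
    | zero => exact dec_zero hu
    | succ s ih => exact dec_succ hU hu hJ hθ ht₀ hC hS ih
  intro x₀ hx₀
  obtain ⟨r, hr, hrU⟩ := Metric.isOpen_iff.1 hU x₀ hx₀
  -- a bump function
  let χ : ContDiffBump x₀ := ⟨r / 4, r / 2, by positivity, by linarith⟩
  have hts : tsupport (χ : E → ℝ) ⊆ U := by
    rw [χ.tsupport_eq]
    exact (closedBall_subset_ball (by change r / 2 < r; linarith)).trans hrU
  have hχs : ContDiff ℝ ∞ (χ : E → ℝ) := χ.contDiff
  have hχc : HasCompactSupport (χ : E → ℝ) := χ.hasCompactSupport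
  have hsm : ContDiff ℝ ∞ fun x => χ x • u x := by
    have h1 : (fun x => χ x • u x) = fun x => ∑ i, ⟪stdOrthonormalBasis ℝ E i, χ x • u x⟫ •
        stdOrthonormalBasis ℝ E i := by
      funext x
      rw [(stdOrthonormalBasis ℝ E).sum_repr' (χ x • u x)]
    rw [h1]
    exact ContDiff.sum fun i _ => (smooth_comp hU hu hD hχs hχc hts _).smul contDiff_const
  have h2 : u =ᶠ[𝓝 x₀] fun x => χ x • u x := by
    filter_upwards [χ.eventuallyEq_one] with x hx
    rw [hx, Pi.one_apply, one_smul]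
  exact (hsm.contDiffAt.congr_of_eventuallyEq h2).contDiffWithinAt

end Vale.Agent.P207.H253
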