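import Mathlib

/-!
# P207/H253: elliptic bootstrapping from approximate first order systems (row FOURIER)
Mathlib only.
-/

open Real MeasureTheory Set Filter Metric Function
open scoped ENNReal Topology ContDiff RealInnerProductSpace

namespace Vale.Agent.P207.H253

variable {E : Type*} [NormedAddCommGroup E] [InnerProductSpace ℝ E] [FiniteDimensional ℝ E]
  [MeasurableSpace E] [BorelSpace E]
variable {W : Type*} [NormedAddCommGroup W] [NormedSpace ℝ W]

/-- the trigonometric function `cos (2π⟪x,ζ⟫ + a)` -/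
noncomputable def tg (a : ℝ) (ζ x : E) : ℝ := Real.cos (2 * π * ⟪x, ζ⟫ + a)

omit [FiniteDimensional ℝ E] [MeasurableSpace E] [BorelSpace E] in
theorem abs_tg_le (a : ℝ) (ζ x : E) : |tg a ζ x| ≤ 1 := Real.abs_cos_le_one _

omit [FiniteDimensional ℝ E] [MeasurableSpace E] [BorelSpace E] in
theorem contDiff_tg (a : ℝ) (ζ : E) {n : WithTop ℕ∞} : ContDiff ℝ n (tg a ζ) := by
  unfold tg
  have h3 : (fun x : E => Real.cos (2 * π * ⟪x, ζ⟫ + a)) =
      fun x : E => Real.cos (2 * π * innerSL ℝ ζ x + a) := by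
    funext y
    rw [real_inner_comm]
    rfl
  rw [h3]
  exact Real.contDiff_cos.comp ((contDiff_const.mul (innerSL ℝ ζ).contDiff).add contDiff_const)

omit [FiniteDimensional ℝ E] [MeasurableSpace E] [BorelSpace E] in
theorem hasFDerivAt_tg (a : ℝ) (ζ x : E) :
    HasFDerivAt (tg a ζ) ((2 * π * tg (a + π / 2) ζ x) • innerSL ℝ ζ) x := by
  have h1 : HasFDerivAt (fun x : E => 2 * π * ⟪x, ζ⟫ + a) ((2 * π) • innerSL ℝ ζ) x := by
    have h2 : HasFDerivAt (fun x : E => ⟪ζ, x⟫) (innerSL ℝ ζ) x := (innerSL ℝ ζ).hasFDerivAt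
    have h3 : (fun x : E => 2 * π * ⟪x, ζ⟫ + a) = fun x : E => 2 * π * ⟪ζ, x⟫ + a := by
      funext y
      rw [real_inner_comm]
    rw [h3]
    exact (h2.const_mul (2 * π)).add_const a
  have h4 := h1.cos
  unfold tg
  convert h4 using 1
  rw [smul_smul, ← add_assoc, Real.cos_add_pi_div_two]
  congr 1
  ring

omit [FiniteDimensional ℝ E] [MeasurableSpace E] [BorelSpace E] in
theorem fderiv_tg (a : ℝ) (ζ x : E) :
    fderiv ℝ (tg a ζ) x = (2 * π * tg (a + π / 2) ζ x) • innerSL ℝ ζ :=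
  (hasFDerivAt_tg a ζ x).fderiv

/-! ### integrability of compactly supported functions -/

omit [NormedSpace ℝ W] in
theorem integrable_cpt {f : E → W} (hf : AEStronglyMeasurable f volume) {K : Set E}
    (hK : IsCompact K) (h0 : ∀ x ∉ K, f x = 0) {M : ℝ} (hM : ∀ x ∈ K, ‖f x‖ ≤ M) :
    Integrable f := by
  have h1 : IntegrableOn f K := by
    refine Measure.integrableOn_of_bounded (M := M) hK.measure_lt_top.ne hf ?_
    exact (ae_restrict_iff' hK.measurableSet).2 (Eventually.of_forall hM)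
  rwa [integrableOn_iff_integrable_of_support_subset] at h1
  intro x hx
  by_contra h
  exact hx (h0 x h)

theorem norm_integral_cpt {f : E → W} {K : Set E}
    (hK : IsCompact K) (h0 : ∀ x ∉ K, f x = 0) {M : ℝ} (hM : ∀ x ∈ K, ‖f x‖ ≤ M) :
    ‖∫ x, f x‖ ≤ M * (volume K).toReal := by
  have h1 : ∫ x, f x = ∫ x in K, f x := by
    symm
    apply setIntegral_eq_integral_of_forall_compl_eq_zero
    intro x hx
    exact h0 x hx
  rw [h1]
  exact norm_setIntegral_le_of_norm_le_const hK.measure_lt_top hM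

/-! ### decay of the Fourier coefficients of smooth functions -/

theorem decay_aux {ζ : E} (hζ : ζ ≠ 0) {K : Set E} (hK : IsCompact K) (k : ℕ) :
    ∀ (f : E → W), ContDiff ℝ ∞ f → (∀ x ∉ K, f x = 0) → ∀ M : ℝ,
      (∀ x, ‖iteratedFDeriv ℝ k f x‖ ≤ M) → ∀ a : ℝ,
      ‖∫ x, tg a ζ x • f x‖ ≤ M * (volume K).toReal * ((2 * π * ‖ζ‖) ^ k)⁻¹ := by
  induction k with
  | zero =>
    intro f hf h0 M hM a
    rw [pow_zero, inv_one, mul_one]
    refine norm_integral_cpt hK (fun x hx => by rw [h0 x hx, smul_zero]) fun x hx => ?_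
    rw [norm_smul, Real.norm_eq_abs]
    have h1 := hM x
    rw [norm_iteratedFDeriv_zero] at h1
    have h2 := abs_tg_le a ζ x
    have h3 := norm_nonneg (f x)
    nlinarith [abs_nonneg (tg a ζ x)]
  | succ k ih =>
    intro f hf h0 M hM a
    have hn : 0 < ‖ζ‖ := norm_pos_iff.2 hζ
    set e : E := ‖ζ‖⁻¹ • ζ with he
    have hen : ‖e‖ = 1 := by
      rw [he, norm_smul, norm_inv, norm_norm, inv_mul_cancel₀ hn.ne']
    have hinner : ⟪ζ, e⟫ = ‖ζ‖ := by
      rw [he, real_inner_smul_right, real_inner_self_eq_norm_sq]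
      field_simp
    have hfd : ContDiff ℝ ∞ (fderiv ℝ f) := hf.fderiv_right (by simp)
    have hf1 : ContDiff ℝ ∞ (fun x => fderiv ℝ f x e) := hfd.clm_apply contDiff_const
    have hdf : Differentiable ℝ f := hf.differentiable (by simp)
    -- vanishing
    have hKc : IsClosed K := hK.isClosed
    have hf10 : ∀ x ∉ K, fderiv ℝ f x e = 0 := by
      intro x hx
      have h1 : f =ᶠ[𝓝 x] fun _ => 0 := by
        filter_upwards [hKc.isOpen_compl.mem_nhds hx] with y hy
        exact h0 y hy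
      rw [h1.fderiv_eq]
      simp
    have hM1 : ∀ x, ‖iteratedFDeriv ℝ k (fun x => fderiv ℝ f x e) x‖ ≤ M := by
      intro x
      have h1 : (fun x => fderiv ℝ f x e) =
          (ContinuousLinearMap.apply ℝ W e) ∘ (fderiv ℝ f) := rfl
      rw [h1]
      have h2 := ContinuousLinearMap.norm_iteratedFDeriv_comp_left
        (ContinuousLinearMap.apply ℝ W e) (f := fderiv ℝ f) (x := x) (n := k) (N := ∞) hfd.contDiffAt
        (by exact_mod_cast le_top)
      refine h2.trans ?_
      rw [norm_iteratedFDeriv_fderiv]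
      have h3 : ‖ContinuousLinearMap.apply ℝ W e‖ ≤ 1 := by
        refine ContinuousLinearMap.opNorm_le_bound _ zero_le_one fun L => ?_
        rw [ContinuousLinearMap.apply_apply, one_mul]
        exact (L.le_opNorm e).trans (by rw [hen, mul_one])
      calc ‖ContinuousLinearMap.apply ℝ W e‖ * ‖iteratedFDeriv ℝ (k + 1) f x‖
          ≤ 1 * M := by
            have := hM x
            gcongr
        _ = M := one_mul M
    have ih1 := ih (fun x => fderiv ℝ f x e) hf1 hf10 M hM1 (a - π / 2)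
    -- integration by parts
    have hcf : Continuous f := hf.continuous
    have hint1 : Integrable (fun x => fderiv ℝ (tg (a - π / 2) ζ) x e • f x) := by
      refine (Continuous.integrable_of_hasCompactSupport ?_ ?_)
      · have hc : ContDiff ℝ ∞ (fderiv ℝ (tg (a - π / 2) ζ)) :=
          (contDiff_tg (a - π / 2) ζ (n := ∞)).fderiv_right (by simp)
        exact (hc.continuous.clm_apply continuous_const).smul hcf
      · refine HasCompactSupport.intro hK fun x hx => ?_
        rw [h0 x hx, smul_zero]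
    have hint2 : Integrable (fun x => tg (a - π / 2) ζ x • fderiv ℝ f x e) := by
      refine (Continuous.integrable_of_hasCompactSupport ?_ ?_)
      · exact (contDiff_tg (a - π / 2) ζ (n := ∞)).continuous.smul hf1.continuous
      · refine HasCompactSupport.intro hK fun x hx => ?_
        rw [hf10 x hx, smul_zero]
    have hint3 : Integrable (fun x => tg (a - π / 2) ζ x • f x) := by
      refine (Continuous.integrable_of_hasCompactSupport ?_ ?_)
      · exact (contDiff_tg (a - π / 2) ζ (n := ∞)).continuous.smul hcf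
      · refine HasCompactSupport.intro hK fun x hx => ?_
        rw [h0 x hx, smul_zero]
    have h5 := integral_smul_fderiv_eq_neg_fderiv_smul_of_integrable (μ := volume)
      (f := tg (a - π / 2) ζ) (g := f) (v := e) hint1 hint2 hint3
      (fun x _ => (contDiff_tg (a - π / 2) ζ (n := ∞)).differentiable (by simp) x)
      (fun x _ => hdf x)
    have h6 : ∀ x, fderiv ℝ (tg (a - π / 2) ζ) x e • f x = (2 * π * ‖ζ‖) • (tg a ζ x • f x) := by
      intro x
      rw [fderiv_tg, smul_smul]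
      congr 1
      rw [_root_.smul_apply, innerSL_apply_apply, hinner, sub_add_cancel, smul_eq_mul]
      ring
    simp only [h6] at h5
    rw [integral_smul] at h5
    have hpos : 0 < 2 * π * ‖ζ‖ := by positivity
    have h7 : ∫ x, tg a ζ x • f x =
        -((2 * π * ‖ζ‖)⁻¹ • ∫ x, tg (a - π / 2) ζ x • fderiv ℝ f x e) := by
      rw [h5, smul_neg, neg_neg, smul_smul, inv_mul_cancel₀ hpos.ne', one_smul]
    rw [h7, norm_neg, norm_smul, norm_inv, Real.norm_of_nonneg hpos.le]
    calc (2 * π * ‖ζ‖)⁻¹ * ‖∫ x, tg (a - π / 2) ζ x • fderiv ℝ f x e‖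
        ≤ (2 * π * ‖ζ‖)⁻¹ * (M * (volume K).toReal * ((2 * π * ‖ζ‖) ^ k)⁻¹) := by gcongr
      _ = _ := by
        rw [pow_succ, mul_inv]
        ring

/-! ### cutting off -/

omit [FiniteDimensional ℝ E] [MeasurableSpace E] [BorelSpace E] in
theorem smooth_cut {χ : E → ℝ} (hχ : ContDiff ℝ ∞ χ) {U : Set E} (hU : IsOpen U)
    (hs : tsupport χ ⊆ U) {F : E → W} (hF : ContDiffOn ℝ ∞ F U) :
    ContDiff ℝ ∞ (fun x => χ x • F x) := by
  rw [contDiff_iff_contDiffAt]
  intro x
  by_cases hx : x ∈ tsupport χ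
  · exact hχ.contDiffAt.smul (hF.contDiffAt (hU.mem_nhds (hs hx)))
  · have h1 : (fun x => χ x • F x) =ᶠ[𝓝 x] fun _ => 0 := by
      filter_upwards [(isClosed_tsupport χ).isOpen_compl.mem_nhds hx] with y hy
      rw [image_eq_zero_of_notMem_tsupport hy, zero_smul]
    exact contDiffAt_const.congr_of_eventuallyEq h1

omit [FiniteDimensional ℝ E] [MeasurableSpace E] [BorelSpace E] in
theorem bound_deriv_cut {χ : E → ℝ} (hχ : ContDiff ℝ ∞ χ) (hc : HasCompactSupport χ) (k : ℕ) :
    ∃ M : ℝ, 0 ≤ M ∧ ∀ x, ∀ i ≤ k, ‖iteratedFDeriv ℝ i χ x‖ ≤ M := by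
  have h1 : ∀ i : ℕ, ∃ M : ℝ, ∀ x, ‖iteratedFDeriv ℝ i χ x‖ ≤ M := by
    intro i
    have h2 : Continuous (iteratedFDeriv ℝ i χ) :=
      hχ.continuous_iteratedFDeriv (by exact_mod_cast le_top)
    have h3 : HasCompactSupport (iteratedFDeriv ℝ i χ) := hc.iteratedFDeriv i
    exact h2.bounded_above_of_compact_support h3
  choose M hM using h1
  refine ⟨∑ i ∈ Finset.range (k + 1), |M i|, Finset.sum_nonneg fun _ _ => abs_nonneg _,
    fun x i hi => (hM i x).trans ((le_abs_self _).trans ?_)⟩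
  exact Finset.single_le_sum (f := fun i => |M i|) (fun _ _ => abs_nonneg _)
    (Finset.mem_range.2 (by omega))

omit [MeasurableSpace E] [BorelSpace E] in
theorem cut_bound {χ : E → ℝ} (hχ : ContDiff ℝ ∞ χ) (hc : HasCompactSupport χ) {U : Set E}
    (hU : IsOpen U) (hs : tsupport χ ⊆ U) (Ck : ℕ → ℝ) (k : ℕ) :
    ∃ M : ℝ, 0 ≤ M ∧ ∀ F : E → W, ContDiffOn ℝ ∞ F U →
      (∀ i, ∀ x ∈ U, ‖iteratedFDeriv ℝ i F x‖ ≤ Ck i) →
      ∀ x, ‖iteratedFDeriv ℝ k (fun x => χ x • F x) x‖ ≤ M := by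
  obtain ⟨M, hM0, hM⟩ := bound_deriv_cut hχ hc k
  refine ⟨∑ i ∈ Finset.range (k + 1), (k.choose i : ℝ) * M * |Ck (k - i)|,
    Finset.sum_nonneg fun i _ => by positivity, fun F hF hb x => ?_⟩
  by_cases hx : x ∈ tsupport χ
  · have hxU := hs hx
    have h1 := norm_iteratedFDerivWithin_smul_le (𝕜 := ℝ) (𝕜' := ℝ) (f := χ) (g := F) (N := ∞)
      (s := U) hχ.contDiffOn hF hU.uniqueDiffOn hxU (n := k) (by exact_mod_cast le_top)
    rw [iteratedFDerivWithin_of_isOpen k hU hxU] at h1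
    refine h1.trans (Finset.sum_le_sum fun i hi => ?_)
    rw [iteratedFDerivWithin_of_isOpen i hU hxU, iteratedFDerivWithin_of_isOpen (k - i) hU hxU]
    have h2 := hM x i (by have := Finset.mem_range.1 hi; omega)
    have h3 := (hb (k - i) x hxU).trans (le_abs_self _)
    gcongr
  · have h1 : (fun x => χ x • F x) =ᶠ[𝓝 x] fun _ => 0 := by
      filter_upwards [(isClosed_tsupport χ).isOpen_compl.mem_nhds hx] with y hy
      rw [image_eq_zero_of_notMem_tsupport hy, zero_smul]
    have h2 : iteratedFDeriv ℝ k (fun x => χ x • F x) x = 0 := by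
      rw [(h1.iteratedFDeriv ℝ k).eq_of_nhds]
      rcases k with _ | k
      · ext
        simp
      · rw [iteratedFDeriv_const_of_ne (by omega)]
        rfl
    rw [h2, norm_zero]
    exact Finset.sum_nonneg fun i _ => by positivity

omit [NormedSpace ℝ W] in
theorem integrable_cut {f : E → W} {K : Set E} (hK : IsCompact K) (h0 : ∀ x ∉ K, f x = 0)
    (hc : ContinuousOn f K) : Integrable f := by
  have h1 : IntegrableOn f K := hc.integrableOn_compact hK
  rwa [integrableOn_iff_integrable_of_support_subset] at h1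
  intro x hx
  by_contra h
  exact hx (h0 x h)

/-! ### ellipticity -/

/-- the rank one map `z ↦ ⟪ζ, z⟫ w` -/
noncomputable def rk (ζ w : E) : E →L[ℝ] E := (innerSL ℝ ζ).smulRight w

omit [MeasurableSpace E] [BorelSpace E] in
theorem ell_const (P : (E →L[ℝ] E) →L[ℝ] (E →L[ℝ] E))
    (hP : ∀ ζ w : E, ζ ≠ 0 → w ≠ 0 → P (rk ζ w) ≠ 0) :
    ∃ c : ℝ, 0 < c ∧ ∀ ζ w : E, c * (‖ζ‖ * ‖w‖) ≤ ‖P (rk ζ w)‖ := by
  have hcont : Continuous fun z : E × E => ‖P (rk z.1 z.2)‖ := by
    unfold rk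
    have h1 : Continuous fun z : E × E => (innerSL ℝ z.1).smulRight z.2 := by
      have h2 : Continuous fun z : E × E =>
          (ContinuousLinearMap.smulRightL ℝ E E (innerSL ℝ z.1)) z.2 := by fun_prop
      exact h2
    exact (P.continuous.comp h1).norm
  rcases (sphere (0 : E) 1).eq_empty_or_nonempty with h | h
  · refine ⟨1, one_pos, fun ζ w => ?_⟩
    have h1 : ζ = 0 := by
      by_contra hne
      have : ‖ζ‖⁻¹ • ζ ∈ sphere (0 : E) 1 := by
        rw [mem_sphere_zero_iff_norm, norm_smul, norm_inv, norm_norm,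
          inv_mul_cancel₀ (norm_ne_zero_iff.2 hne)]
      rw [h] at this
      exact this
    rw [h1]
    simp
  · obtain ⟨z₀, hz₀, hmin⟩ := ((isCompact_sphere (0 : E) 1).prod (isCompact_sphere (0 : E) 1)).exists_isMinOn
      (h.prod h) hcont.continuousOn
    have hz1 : ‖z₀.1‖ = 1 := mem_sphere_zero_iff_norm.1 hz₀.1
    have hz2 : ‖z₀.2‖ = 1 := mem_sphere_zero_iff_norm.1 hz₀.2
    have hpos : 0 < ‖P (rk z₀.1 z₀.2)‖ := by
      refine norm_pos_iff.2 (hP _ _ ?_ ?_)
      · rw [← norm_ne_zero_iff, hz1]; norm_num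
      · rw [← norm_ne_zero_iff, hz2]; norm_num
    refine ⟨_, hpos, fun ζ w => ?_⟩
    rcases eq_or_ne ζ 0 with rfl | hζ
    · simp
    rcases eq_or_ne w 0 with rfl | hw
    · simp
    have hζn : 0 < ‖ζ‖ := norm_pos_iff.2 hζ
    have hwn : 0 < ‖w‖ := norm_pos_iff.2 hw
    have h1 := hmin (show ((‖ζ‖⁻¹ • ζ, ‖w‖⁻¹ • w) : E × E) ∈ sphere (0 : E) 1 ×ˢ sphere (0 : E) 1 by
      constructor
      · rw [mem_sphere_zero_iff_norm, norm_smul, norm_inv, norm_norm, inv_mul_cancel₀ hζn.ne']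
      · rw [mem_sphere_zero_iff_norm, norm_smul, norm_inv, norm_norm, inv_mul_cancel₀ hwn.ne'])
    have h2 : rk (‖ζ‖⁻¹ • ζ) (‖w‖⁻¹ • w) = (‖ζ‖⁻¹ * ‖w‖⁻¹) • rk ζ w := by
      ext z
      simp only [rk, ContinuousLinearMap.smulRight_apply, innerSL_apply_apply, _root_.smul_apply,
        real_inner_smul_left, smul_smul]
      congr 1
      ring
    simp only [mem_ofPred_eq] at h1
    rw [h2, map_smul, norm_smul, norm_mul, norm_inv, norm_inv, norm_norm, norm_norm] at h1
    calc ‖P (rk z₀.1 z₀.2)‖ * (‖ζ‖ * ‖w‖)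
        ≤ (‖ζ‖⁻¹ * ‖w‖⁻¹ * ‖P (rk ζ w)‖) * (‖ζ‖ * ‖w‖) := by gcongr
      _ = ‖P (rk ζ w)‖ := by
        field_simp

end Vale.Agent.P207.H253
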