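import Vale.Agent.P207.H253.Ell1

/-!
# P207/H253: elliptic bootstrapping, the main theorem (row FOURIER). Mathlib only.
-/

open Real MeasureTheory Set Filter Metric Function
open scoped ENNReal Topology ContDiff RealInnerProductSpace

namespace Vale.Agent.P207.H253

variable {E : Type*} [NormedAddCommGroup E] [InnerProductSpace ℝ E] [FiniteDimensional ℝ E]
  [MeasurableSpace E] [BorelSpace E]

/-- decay of order `s` of the localised Fourier coefficients -/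
def Dec (u : E → E) (U : Set E) (s : ℕ) : Prop :=
  ∀ χ : E → ℝ, ContDiff ℝ ∞ χ → HasCompactSupport χ → tsupport χ ⊆ U →
    ∃ C : ℝ, 0 ≤ C ∧ ∀ (a : ℝ) (ζ : E), 1 ≤ ‖ζ‖ → ‖∫ x, tg a ζ x • χ x • u x‖ ≤ C * (‖ζ‖ ^ s)⁻¹

/-- `rk` as a linear map -/
noncomputable def Rk (ζ : E) : E →L[ℝ] (E →L[ℝ] E) :=
  ContinuousLinearMap.smulRightL ℝ E E (innerSL ℝ ζ)

theorem Rk_apply (ζ v : E) : Rk ζ v = rk ζ v := rfl

theorem dec_zero {u : E → E} {U : Set E} (hu : ContinuousOn u U) : Dec u U 0 := by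
  intro χ hχ hc hs
  obtain ⟨M, hM⟩ := hc.isCompact.exists_bound_of_continuousOn (f := fun x => χ x • u x)
    (hχ.continuous.continuousOn.smul (hu.mono hs))
  refine ⟨|M| * (volume (tsupport χ)).toReal, by positivity, fun a ζ _ => ?_⟩
  rw [pow_zero, inv_one, mul_one]
  refine norm_integral_cpt hc.isCompact (fun x hx => ?_) fun x hx => ?_
  · rw [image_eq_zero_of_notMem_tsupport hx, zero_smul, smul_zero]
  · rw [norm_smul, Real.norm_eq_abs]
    have h1 := abs_tg_le a ζ x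
    have h2 := (hM x hx).trans (le_abs_self M)
    have h3 := norm_nonneg (χ x • u x)
    have h4 := abs_nonneg (tg a ζ x)
    nlinarith

/-- the approximate systems -/
def Sys (u : E → E) (U : Set E) (J : Submodule ℝ (E →L[ℝ] E)) (θ C : ℝ) (Ck : ℕ → ℝ)
    (t : ℝ) : Prop :=
  ∃ (g : E → E) (F : E → E →L[ℝ] E),
    DifferentiableOn ℝ g U ∧ (∀ x ∈ U, ‖fderiv ℝ g x‖ ≤ C) ∧
    ContDiffOn ℝ ∞ F U ∧ (∀ k, ∀ x ∈ U, ‖iteratedFDeriv ℝ k F x‖ ≤ Ck k) ∧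
    (∀ x ∈ U, ‖g x - x - t • u x‖ ≤ C * t ^ (1 + θ)) ∧
    (∀ x ∈ U, ∃ Y ∈ J, ‖fderiv ℝ g x - ContinuousLinearMap.id ℝ E - F x - Y‖ ≤ C * t ^ (1 + θ))

/-- the operator with kernel `J` -/
theorem exists_proj (J : Submodule ℝ (E →L[ℝ] E)) : ∃ P : (E →L[ℝ] E) →L[ℝ] (E →L[ℝ] E),
    ∀ X, P X = 0 ↔ X ∈ J := by
  obtain ⟨K, hK⟩ := Submodule.exists_isCompl J
  refine ⟨LinearMap.toContinuousLinearMap (K.projection J hK.symm), fun X => ?_⟩
  rw [LinearMap.coe_toContinuousLinearMap']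
  exact Submodule.projection_apply_eq_zero_iff hK.symm

theorem norm_le_sum_basis (L : E →L[ℝ] E) : ‖L‖ ≤ ∑ i, ‖L (stdOrthonormalBasis ℝ E i)‖ := by
  refine ContinuousLinearMap.opNorm_le_bound _ (Finset.sum_nonneg fun _ _ => norm_nonneg _) fun x => ?_
  have h1 : L x = ∑ i, ⟪stdOrthonormalBasis ℝ E i, x⟫ • L (stdOrthonormalBasis ℝ E i) := by
    conv_lhs => rw [← (stdOrthonormalBasis ℝ E).sum_repr' x]
    rw [map_sum]
    exact Finset.sum_congr rfl fun i _ => by rw [map_smul]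
  rw [h1, Finset.sum_mul]
  refine (norm_sum_le _ _).trans (Finset.sum_le_sum fun i _ => ?_)
  rw [norm_smul, mul_comm]
  gcongr
  have h2 := norm_inner_le_norm (𝕜 := ℝ) (stdOrthonormalBasis ℝ E i) x
  rwa [(stdOrthonormalBasis ℝ E).orthonormal.1 i, one_mul] at h2

/-- one estimate, for given `ζ` and `t` -/
theorem est {u : E → E} {U : Set E} (hU : IsOpen U) (hu : ContinuousOn u U)
    {J : Submodule ℝ (E →L[ℝ] E)} {θ C : ℝ} {Ck : ℕ → ℝ} (hC : 0 ≤ C)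
    {P : (E →L[ℝ] E) →L[ℝ] (E →L[ℝ] E)} (hPJ : ∀ X, P X = 0 ↔ X ∈ J)
    {χ : E → ℝ} (hχ : ContDiff ℝ ∞ χ) (hc : HasCompactSupport χ) (hs : tsupport χ ⊆ U) (k : ℕ)
    {Mχ MF : ℝ} (hMχ0 : 0 ≤ Mχ) (hMχ : ∀ x, |χ x| ≤ Mχ ∧ ‖fderiv ℝ χ x‖ ≤ Mχ)
    (hMF : ∀ F : E → E →L[ℝ] E, ContDiffOn ℝ ∞ F U →
      (∀ i, ∀ x ∈ U, ‖iteratedFDeriv ℝ i F x‖ ≤ Ck i) →
      ∀ x, ‖iteratedFDeriv ℝ k (fun x => χ x • F x) x‖ ≤ MF)
    {t : ℝ} (ht : 0 < t) (hS : Sys u U J θ C Ck t) (a : ℝ) {ζ : E} (hζ : 1 ≤ ‖ζ‖) :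
    ‖P (rk ζ ((2 * π) • ∫ x, tg (a + π / 2) ζ x • χ x • u x))‖ ≤
      ‖P‖ * (∑ i, ‖∫ x, tg a ζ x • fderiv ℝ χ x (stdOrthonormalBasis ℝ E i) • u x‖) +
      ‖P‖ * (((1 + 2 * π * ‖ζ‖) * Mχ + Mχ) * (C * t ^ θ) * (volume (tsupport χ)).toReal) +
      ‖P‖ * (t⁻¹ * (MF * (volume (tsupport χ)).toReal * ((2 * π * ‖ζ‖) ^ k)⁻¹)) := by
  obtain ⟨g, F, hgd, hgb, hFs, hFb, hgu, hgJ⟩ := hS
  set K := tsupport χ with hKdef
  have hK : IsCompact K := hc.isCompact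
  have hζ0 : 0 < ‖ζ‖ := by linarith
  have hζne : ζ ≠ 0 := norm_pos_iff.1 hζ0
  have hχd : Differentiable ℝ χ := hχ.differentiable (by simp)
  have hχ0 : ∀ x ∉ K, χ x = 0 := fun x hx => image_eq_zero_of_notMem_tsupport hx
  have hχ'0 : ∀ x ∉ K, fderiv ℝ χ x = 0 := by
    intro x hx
    have h1 : χ =ᶠ[𝓝 x] fun _ => 0 := by
      filter_upwards [(isClosed_tsupport χ).isOpen_compl.mem_nhds hx] with y hy
      exact hχ0 y hy
    rw [h1.fderiv_eq]
    simp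
  have htd : Differentiable ℝ (tg a ζ) := (contDiff_tg a ζ (n := ∞)).differentiable (by simp)
  -- the test function
  set ψ : E → ℝ := fun x => tg a ζ x * χ x with hψ
  have hψs : ContDiff ℝ ∞ ψ := (contDiff_tg a ζ).mul hχ
  have hψd : Differentiable ℝ ψ := hψs.differentiable (by simp)
  have hψ0 : ∀ x ∉ K, ψ x = 0 := fun x hx => by rw [hψ]; simp only; rw [hχ0 x hx, mul_zero]
  have hψ' : ∀ x, fderiv ℝ ψ x = tg a ζ x • fderiv ℝ χ x +
      (χ x * (2 * π * tg (a + π / 2) ζ x)) • innerSL ℝ ζ := by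
    intro x
    rw [hψ, fderiv_fun_mul (htd x) (hχd x), fderiv_tg, smul_smul]
  have hψ'0 : ∀ x ∉ K, fderiv ℝ ψ x = 0 := by
    intro x hx
    rw [hψ' x, hχ0 x hx, hχ'0 x hx]
    simp
  have hψ'c : Continuous (fderiv ℝ ψ) := (hψs.fderiv_right (m := ∞) (by simp)).continuous
  have hχ'c : Continuous (fderiv ℝ χ) := (hχ.fderiv_right (m := ∞) (by simp)).continuous
  have huK : ContinuousOn u K := hu.mono hs
  have hψb : ∀ x, |ψ x| ≤ Mχ := by
    intro x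
    rw [hψ]
    simp only
    rw [abs_mul]
    have h1 := abs_tg_le a ζ x
    have h2 := (hMχ x).1
    have h3 := abs_nonneg (χ x)
    have h4 := abs_nonneg (tg a ζ x)
    nlinarith
  have hψ'b : ∀ x, ‖fderiv ℝ ψ x‖ ≤ (1 + 2 * π * ‖ζ‖) * Mχ := by
    intro x
    rw [hψ' x]
    refine (norm_add_le _ _).trans ?_
    rw [norm_smul, norm_smul, innerSL_apply_norm, Real.norm_eq_abs, Real.norm_eq_abs, abs_mul,
      abs_mul, abs_of_pos (by positivity : 0 < 2 * π)]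
    have h1 := abs_tg_le a ζ x
    have h1' := abs_tg_le (a + π / 2) ζ x
    have h2 := (hMχ x).1
    have h2' := (hMχ x).2
    calc |tg a ζ x| * ‖fderiv ℝ χ x‖ + |χ x| * (2 * π * |tg (a + π / 2) ζ x|) * ‖ζ‖
        ≤ 1 * Mχ + Mχ * (2 * π * 1) * ‖ζ‖ := by gcongr
      _ = _ := by ring
  -- the operator
  set Op : E →L[ℝ] E := ∫ x, (fderiv ℝ ψ x).smulRight (u x) with hOp
  set Rem : E →L[ℝ] E := ∫ x, tg a ζ x • (fderiv ℝ χ x).smulRight (u x) with hRem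
  set w : E := ∫ x, tg (a + π / 2) ζ x • χ x • u x with hw
  have csr : ∀ {f : E → E →L[ℝ] ℝ} {v : E → E}, ContinuousOn f K → ContinuousOn v K →
      ContinuousOn (fun x => (f x).smulRight (v x)) K := by
    intro f v hf hv
    have h2 : Continuous fun z : (E →L[ℝ] ℝ) × E => z.1.smulRight z.2 := by
      have h3 : Continuous fun z : (E →L[ℝ] ℝ) × E =>
          (ContinuousLinearMap.smulRightL ℝ E E z.1) z.2 := by fun_prop
      exact h3
    exact h2.comp_continuousOn (hf.prodMk hv)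
  have hi1 : Integrable (fun x => tg (a + π / 2) ζ x • χ x • u x) := by
    refine integrable_cut hK (fun x hx => by rw [hχ0 x hx, zero_smul, smul_zero]) ?_
    exact (contDiff_tg (a + π / 2) ζ (n := ∞)).continuous.continuousOn.smul
      (hχ.continuous.continuousOn.smul huK)
  have hi2 : Integrable (fun x => tg a ζ x • (fderiv ℝ χ x).smulRight (u x)) := by
    refine integrable_cut hK (fun x hx => ?_) ?_
    · rw [hχ'0 x hx]
      ext
      simp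
    · exact (contDiff_tg a ζ (n := ∞)).continuous.continuousOn.smul
        (csr hχ'c.continuousOn huK)
  have hOp1 : Op = rk ζ ((2 * π) • w) + Rem := by
    have e1 : ∀ x, (fderiv ℝ ψ x).smulRight (u x) =
        Rk ζ ((2 * π) • (tg (a + π / 2) ζ x • χ x • u x)) +
          tg a ζ x • (fderiv ℝ χ x).smulRight (u x) := by
      intro x
      rw [hψ' x, Rk_apply]
      ext1 z
      simp only [rk, ContinuousLinearMap.smulRight_apply, _root_.add_apply, _root_.smul_apply,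
        innerSL_apply_apply, smul_eq_mul]
      module
    have hi1' : Integrable (fun x => (2 * π) • (tg (a + π / 2) ζ x • χ x • u x)) :=
      hi1.smul (2 * π)
    rw [hOp]
    simp only [e1]
    rw [integral_add ((Rk ζ).integrable_comp hi1') hi2, (Rk ζ).integral_comp_comm hi1',
      integral_smul, Rk_apply]
  -- the remainder
  have hRemb : ‖Rem‖ ≤
      ∑ i, ‖∫ x, tg a ζ x • fderiv ℝ χ x (stdOrthonormalBasis ℝ E i) • u x‖ := by
    refine (norm_le_sum_basis Rem).trans (le_of_eq ?_)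
    refine Finset.sum_congr rfl fun i _ => ?_
    rw [hRem, ContinuousLinearMap.integral_apply hi2]
    rfl
  -- replace `u` by `v`
  set v : E → E := fun x => t⁻¹ • (g x - x) with hv
  have hvd : ∀ x ∈ U, DifferentiableAt ℝ v x := fun x hx =>
    ((hgd.differentiableAt (hU.mem_nhds hx)).sub differentiableAt_id).const_smul t⁻¹
  have hvK : ContinuousOn v K := fun x hx => (hvd x (hs hx)).continuousAt.continuousWithinAt
  have hvf : ∀ x ∈ U, fderiv ℝ v x = t⁻¹ • (fderiv ℝ g x - ContinuousLinearMap.id ℝ E) := by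
    intro x hx
    have h1 : HasFDerivAt v (t⁻¹ • (fderiv ℝ g x - ContinuousLinearMap.id ℝ E)) x :=
      ((hgd.differentiableAt (hU.mem_nhds hx)).hasFDerivAt.sub (hasFDerivAt_id x)).const_smul t⁻¹
    exact h1.fderiv
  have hiu : Integrable (fun x => (fderiv ℝ ψ x).smulRight (u x)) := by
    refine integrable_cut hK (fun x hx => ?_) (csr hψ'c.continuousOn huK)
    rw [hψ'0 x hx]
    ext
    simp
  have hiv : Integrable (fun x => (fderiv ℝ ψ x).smulRight (v x)) := by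
    refine integrable_cut hK (fun x hx => ?_) (csr hψ'c.continuousOn hvK)
    rw [hψ'0 x hx]
    ext
    simp
  set Op₂ : E →L[ℝ] E := ∫ x, (fderiv ℝ ψ x).smulRight (v x) with hOp₂
  have htθ : 0 < t ^ θ := Real.rpow_pos_of_pos ht θ
  have hd1 : ‖Op - Op₂‖ ≤
      (1 + 2 * π * ‖ζ‖) * Mχ * (C * t ^ θ) * (volume K).toReal := by
    rw [hOp, hOp₂, ← integral_sub hiu hiv]
    refine norm_integral_cpt hK (fun x hx => ?_) fun x hx => ?_
    · rw [hψ'0 x hx]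
      ext
      simp
    · have e2 : (fderiv ℝ ψ x).smulRight (u x) - (fderiv ℝ ψ x).smulRight (v x) =
          (fderiv ℝ ψ x).smulRight (u x - v x) := by
        ext1 z
        simp only [ContinuousLinearMap.smulRight_apply, _root_.sub_apply, smul_sub]
      rw [e2, ContinuousLinearMap.norm_smulRight_apply]
      have h1 : ‖u x - v x‖ ≤ C * t ^ θ := by
        have h2 : u x - v x = -(t⁻¹ • (g x - x - t • u x)) := by
          rw [hv]
          simp only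
          rw [smul_sub, smul_sub, smul_smul, inv_mul_cancel₀ ht.ne', one_smul, smul_sub]
          abel
        rw [h2, norm_neg, norm_smul, norm_inv, Real.norm_of_nonneg ht.le]
        calc t⁻¹ * ‖g x - x - t • u x‖ ≤ t⁻¹ * (C * t ^ (1 + θ)) := by
              have := hgu x (hs hx)
              gcongr
          _ = C * t ^ θ := by
              rw [Real.rpow_add ht, Real.rpow_one]
              field_simp
      have h3 := hψ'b x
      gcongr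
  -- integration by parts
  have hmf : ∀ x ∈ U, ‖fderiv ℝ v x‖ ≤ t⁻¹ * (C + 1) := by
    intro x hx
    rw [hvf x hx, norm_smul, norm_inv, Real.norm_of_nonneg ht.le]
    gcongr
    refine (norm_sub_le _ _).trans ?_
    have := hgb x hx
    have h2 := ContinuousLinearMap.norm_id_le (𝕜 := ℝ) (E := E)
    linarith
  have hiw : Integrable (fun x => ψ x • fderiv ℝ v x) := by
    refine integrable_cpt (M := Mχ * (t⁻¹ * (C + 1))) ?_ hK (fun x hx => by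
      rw [hψ0 x hx, zero_smul]) fun x hx => ?_
    · exact hψs.continuous.aestronglyMeasurable.smul
        (measurable_fderiv ℝ v).aestronglyMeasurable
    · rw [norm_smul, Real.norm_eq_abs]
      have h1 := hψb x
      have h2 := hmf x (hs hx)
      gcongr
  have hibp : Op₂ = -∫ x, ψ x • fderiv ℝ v x := by
    ext1 z
    rw [hOp₂, ContinuousLinearMap.integral_apply hiv, _root_.neg_apply,
      ContinuousLinearMap.integral_apply hiw]
    simp only [ContinuousLinearMap.smulRight_apply, _root_.smul_apply]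
    have hts : tsupport ψ ⊆ K := by
      refine closure_minimal (fun x hx => ?_) hK.isClosed
      by_contra h
      exact hx (hψ0 x h)
    have h5 := integral_smul_fderiv_eq_neg_fderiv_smul_of_integrable (μ := volume)
      (f := ψ) (g := v) (v := z) ?_ ?_ ?_ (fun x _ => hψd x) (fun x hx => hvd x (hs (hts hx)))
    · rw [h5, neg_neg]
    · refine integrable_cut hK (fun x hx => ?_) ?_
      · rw [hψ'0 x hx]
        simp
      · exact (hψ'c.clm_apply continuous_const).continuousOn.smul hvK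
    · have h6 := (ContinuousLinearMap.apply ℝ E z).integrable_comp hiw
      exact h6
    · refine integrable_cut hK (fun x hx => ?_) ?_
      · rw [hψ0 x hx, zero_smul]
      · exact hψs.continuous.continuousOn.smul hvK
  -- the smooth part
  have hcF : ContDiff ℝ ∞ (fun x => χ x • F x) := smooth_cut hχ hU hs hFs
  have hiF : Integrable (fun x => tg a ζ x • (χ x • F x)) := by
    refine integrable_cut hK (fun x hx => by rw [hχ0 x hx, zero_smul, smul_zero]) ?_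
    exact ((contDiff_tg a ζ (n := ∞)).continuous.smul hcF.continuous).continuousOn
  have hFd : ‖∫ x, tg a ζ x • (χ x • F x)‖ ≤
      MF * (volume K).toReal * ((2 * π * ‖ζ‖) ^ k)⁻¹ :=
    decay_aux hζne hK k (fun x => χ x • F x) hcF (fun x hx => by rw [hχ0 x hx, zero_smul]) MF
      (hMF F hFs hFb) a
  set B : E →L[ℝ] E := ∫ x, tg a ζ x • (χ x • F x) with hB
  have hiF' : Integrable (fun x => t⁻¹ • (tg a ζ x • (χ x • F x))) := hiF.smul t⁻¹
  have hsub : ∫ x, ψ x • fderiv ℝ v x = (∫ x, (ψ x • fderiv ℝ v x -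
      t⁻¹ • (tg a ζ x • (χ x • F x)))) + t⁻¹ • B := by
    rw [integral_sub hiw hiF', integral_smul, sub_add_cancel]
  have hiD : Integrable (fun x => ψ x • fderiv ℝ v x - t⁻¹ • (tg a ζ x • (χ x • F x))) :=
    hiw.sub hiF'
  have hD : ‖P (∫ x, (ψ x • fderiv ℝ v x - t⁻¹ • (tg a ζ x • (χ x • F x))))‖ ≤
      ‖P‖ * (Mχ * (C * t ^ θ)) * (volume K).toReal := by
    rw [← P.integral_comp_comm hiD]
    refine norm_integral_cpt hK (fun x hx => ?_) fun x hx => ?_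
    · rw [hψ0 x hx, hχ0 x hx]
      simp
    · obtain ⟨Y, hY, hYb⟩ := hgJ x (hs hx)
      have e3 : ψ x • fderiv ℝ v x - t⁻¹ • (tg a ζ x • (χ x • F x)) =
          (ψ x * t⁻¹) • (fderiv ℝ g x - ContinuousLinearMap.id ℝ E - F x - Y) +
            (ψ x * t⁻¹) • Y := by
        rw [hvf x (hs hx), hψ]
        module
      rw [e3, map_add, map_smul, map_smul, (hPJ Y).2 hY, smul_zero, add_zero, norm_smul, norm_mul,
        norm_inv, Real.norm_of_nonneg ht.le, Real.norm_eq_abs]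
      calc |ψ x| * t⁻¹ * ‖P (fderiv ℝ g x - ContinuousLinearMap.id ℝ E - F x - Y)‖
          ≤ Mχ * t⁻¹ * (‖P‖ * (C * t ^ (1 + θ))) := by
            have h1 := hψb x
            have h2 : ‖P (fderiv ℝ g x - ContinuousLinearMap.id ℝ E - F x - Y)‖ ≤
                ‖P‖ * (C * t ^ (1 + θ)) := (P.le_opNorm _).trans (by gcongr)
            gcongr
        _ = _ := by
            rw [Real.rpow_add ht, Real.rpow_one]
            field_simp
  have hfin : P (rk ζ ((2 * π) • w)) = P (Op - Op₂) -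
      P (∫ x, (ψ x • fderiv ℝ v x - t⁻¹ • (tg a ζ x • (χ x • F x)))) - t⁻¹ • P B - P Rem := by
    have e4 : rk ζ ((2 * π) • w) = (Op - Op₂) -
      (∫ x, (ψ x • fderiv ℝ v x - t⁻¹ • (tg a ζ x • (χ x • F x)))) - t⁻¹ • B - Rem := by
      have e5 : rk ζ ((2 * π) • w) = Op - Rem := by rw [hOp1]; abel
      rw [e5, hibp, hsub]
      abel
    rw [e4, map_sub, map_sub, map_sub, map_smul]
  rw [hfin]
  have n1 : ‖P (Op - Op₂)‖ ≤ ‖P‖ * ((1 + 2 * π * ‖ζ‖) * Mχ * (C * t ^ θ) * (volume K).toReal) :=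
    (P.le_opNorm _).trans (by gcongr)
  have n2 : ‖t⁻¹ • P B‖ ≤ ‖P‖ * (t⁻¹ * (MF * (volume K).toReal * ((2 * π * ‖ζ‖) ^ k)⁻¹)) := by
    rw [norm_smul, norm_inv, Real.norm_of_nonneg ht.le]
    calc t⁻¹ * ‖P B‖ ≤ t⁻¹ * (‖P‖ * ‖B‖) := by
          gcongr
          exact P.le_opNorm _
      _ ≤ t⁻¹ * (‖P‖ * (MF * (volume K).toReal * ((2 * π * ‖ζ‖) ^ k)⁻¹)) := by gcongr
      _ = _ := by ring
  have n3 : ‖P Rem‖ ≤ ‖P‖ *
      (∑ i, ‖∫ x, tg a ζ x • fderiv ℝ χ x (stdOrthonormalBasis ℝ E i) • u x‖) :=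
    (P.le_opNorm _).trans (by gcongr)
  have n4 := norm_sub_le (P (Op - Op₂) -
      P (∫ x, (ψ x • fderiv ℝ v x - t⁻¹ • (tg a ζ x • (χ x • F x)))) - t⁻¹ • P B) (P Rem)
  have n5 := norm_sub_le (P (Op - Op₂) -
      P (∫ x, (ψ x • fderiv ℝ v x - t⁻¹ • (tg a ζ x • (χ x • F x))))) (t⁻¹ • P B)
  have n6 := norm_sub_le (P (Op - Op₂))
      (P (∫ x, (ψ x • fderiv ℝ v x - t⁻¹ • (tg a ζ x • (χ x • F x)))))
  have n7 : ‖P‖ * (((1 + 2 * π * ‖ζ‖) * Mχ + Mχ) * (C * t ^ θ) * (volume K).toReal) =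
      ‖P‖ * ((1 + 2 * π * ‖ζ‖) * Mχ * (C * t ^ θ) * (volume K).toReal) +
      ‖P‖ * (Mχ * (C * t ^ θ)) * (volume K).toReal := by ring
  rw [n7]
  linarith

theorem T2_aux {z M C V th : ℝ} {s : ℕ} (hz : 1 ≤ z) (hM : 0 ≤ M) (hC : 0 ≤ C) (hV : 0 ≤ V)
    (hth : th ≤ (z ^ (s + 2))⁻¹) : ((1 + 2 * π * z) * M + M) * (C * th) * V ≤
      ((1 + 2 * π + 1) * M * C * V) * (z ^ s)⁻¹ := by
  have hz0 : 0 < z := by linarith
  have hpi := Real.pi_pos
  have h3 : (1 + 2 * π * z) * M + M ≤ (1 + 2 * π + 1) * M * z := by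
    have h4 : M ≤ z * M := by nlinarith
    nlinarith
  have h5 : (z ^ (s + 2))⁻¹ = (z ^ (s + 1))⁻¹ * z⁻¹ := by rw [pow_succ z (s + 1), mul_inv]
  have h6 : (z ^ (s + 1))⁻¹ ≤ (z ^ s)⁻¹ :=
    inv_anti₀ (by positivity) (pow_le_pow_right₀ hz (by omega))
  have h0 : 0 ≤ (1 + 2 * π * z) * M + M := by positivity
  calc ((1 + 2 * π * z) * M + M) * (C * th) * V
      ≤ ((1 + 2 * π * z) * M + M) * (C * (z ^ (s + 2))⁻¹) * V := by gcongr
    _ ≤ ((1 + 2 * π + 1) * M * z) * (C * (z ^ (s + 2))⁻¹) * V := by gcongr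
    _ = ((1 + 2 * π + 1) * M * C * V) * (z ^ (s + 1))⁻¹ * (z * z⁻¹) := by
        rw [h5]
        ring
    _ = ((1 + 2 * π + 1) * M * C * V) * (z ^ (s + 1))⁻¹ := by
        rw [mul_inv_cancel₀ hz0.ne', mul_one]
    _ ≤ _ := by gcongr

theorem T3_aux {z MF V : ℝ} {K s : ℕ} (hz : 1 ≤ z) (hM : 0 ≤ MF) (hV : 0 ≤ V) :
    z ^ K * (MF * V * ((2 * π * z) ^ (K + s))⁻¹) ≤ (MF * V) * (z ^ s)⁻¹ := by
  have hz0 : 0 < z := by linarith
  have h3 : ((2 * π * z) ^ (K + s))⁻¹ ≤ (z ^ (K + s))⁻¹ := by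
    refine inv_anti₀ (by positivity) (pow_le_pow_left₀ hz0.le ?_ _)
    have := Real.pi_gt_three
    nlinarith
  have h4 : (z ^ (K + s))⁻¹ = (z ^ K)⁻¹ * (z ^ s)⁻¹ := by rw [pow_add, mul_inv]
  have h5 : z ^ K * (z ^ K)⁻¹ = 1 := mul_inv_cancel₀ (by positivity)
  calc z ^ K * (MF * V * ((2 * π * z) ^ (K + s))⁻¹)
      ≤ z ^ K * (MF * V * (z ^ (K + s))⁻¹) := by gcongr
    _ = (z ^ K * (z ^ K)⁻¹) * ((MF * V) * (z ^ s)⁻¹) := by rw [h4]; ring
    _ = _ := by rw [h5, one_mul]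

theorem fin_aux {z n c p S A B : ℝ} {s : ℕ} (hz : 1 ≤ z) (hc : 0 < c)
    (h : c * (z * n) ≤ p * (S * (z ^ s)⁻¹) + p * (A * (z ^ s)⁻¹) + p * (B * (z ^ s)⁻¹)) :
    n ≤ (c⁻¹ * (p * S + p * A + p * B)) * (z ^ (s + 1))⁻¹ := by
  have hz0 : 0 < z := by linarith
  have h1 : n = c⁻¹ * z⁻¹ * (c * (z * n)) := by field_simp
  rw [h1]
  have h2 : (z ^ (s + 1))⁻¹ = (z ^ s)⁻¹ * z⁻¹ := by rw [pow_succ, mul_inv]
  rw [h2]
  calc c⁻¹ * z⁻¹ * (c * (z * n)) ≤ c⁻¹ * z⁻¹ * (p * (S * (z ^ s)⁻¹) + p * (A * (z ^ s)⁻¹) +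
        p * (B * (z ^ s)⁻¹)) := by gcongr
    _ = _ := by ring

/-- the induction step -/
theorem dec_succ {u : E → E} {U : Set E} (hU : IsOpen U) (hu : ContinuousOn u U)
    {J : Submodule ℝ (E →L[ℝ] E)} (hJ : ∀ ζ w : E, ζ ≠ 0 → w ≠ 0 → rk ζ w ∉ J)
    {θ t₀ C : ℝ} {Ck : ℕ → ℝ} (hθ : 0 < θ) (ht₀ : 0 < t₀) (hC0 : 0 ≤ C)
    (hS' : ∀ t, 0 < t → t < t₀ → Sys u U J θ C Ck t) {s : ℕ} (hD : Dec u U s) :
    Dec u U (s + 1) := by
  obtain ⟨P, hPJ⟩ := exists_proj J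
  obtain ⟨c, hc0, hell⟩ := ell_const P (fun ζ w hζ hw h => hJ ζ w hζ hw ((hPJ _).1 h))
  intro χ hχ hc hs
  -- the parameters
  obtain ⟨K, hK⟩ := exists_nat_gt (((s : ℝ) + 2) / θ)
  have hKθ : (s : ℝ) + 2 ≤ K * θ := by
    rw [div_lt_iff₀ hθ] at hK
    exact hK.le
  obtain ⟨M₁, hM₁0, hM₁⟩ := bound_deriv_cut hχ hc 1
  obtain ⟨MF, hMF0, hMF⟩ := cut_bound (W := E →L[ℝ] E) hχ hc hU hs Ck (K + s)
  have hMχ : ∀ x, |χ x| ≤ M₁ ∧ ‖fderiv ℝ χ x‖ ≤ M₁ := by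
    intro x
    have h1 := hM₁ x 0 (by omega)
    have h2 := hM₁ x 1 (by omega)
    rw [norm_iteratedFDeriv_zero, Real.norm_eq_abs] at h1
    rw [norm_iteratedFDeriv_one] at h2
    exact ⟨h1, h2⟩
  -- the derivatives of the cutoff
  have hder : ∀ i, ∃ Ci : ℝ, 0 ≤ Ci ∧ ∀ (a : ℝ) (ζ : E), 1 ≤ ‖ζ‖ →
      ‖∫ x, tg a ζ x • fderiv ℝ χ x (stdOrthonormalBasis ℝ E i) • u x‖ ≤ Ci * (‖ζ‖ ^ s)⁻¹ := by
    intro i
    refine hD (fun x => fderiv ℝ χ x (stdOrthonormalBasis ℝ E i)) ?_ ?_ ?_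
    · exact (hχ.fderiv_right (m := ∞) (by simp)).clm_apply contDiff_const
    · exact hc.fderiv_apply (𝕜 := ℝ) _
    · exact (tsupport_fderiv_apply_subset ℝ _).trans hs
  choose Ci hCi0 hCi using hder
  have hV0 : 0 ≤ (volume (tsupport χ)).toReal := ENNReal.toReal_nonneg
  obtain ⟨C0, hC00, hC0b⟩ := dec_zero hu χ hχ hc hs
  have hR1 : 1 ≤ max 1 (t₀⁻¹) := le_max_left _ _
  have hSum : 0 ≤ ∑ i, Ci i := Finset.sum_nonneg fun i _ => hCi0 i
  obtain ⟨C1, hC1⟩ : ∃ C1 : ℝ, C1 = c⁻¹ * (‖P‖ * (∑ i, Ci i) +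
    ‖P‖ * ((1 + 2 * π + 1) * M₁ * C * (volume (tsupport χ)).toReal) +
    ‖P‖ * (MF * (volume (tsupport χ)).toReal)) := ⟨_, rfl⟩
  have hC10 : 0 ≤ C1 := by
    rw [hC1]
    positivity
  refine ⟨C1 + C0 * (max 1 (t₀⁻¹)) ^ (s + 1), by positivity, fun a₀ ζ hζ => ?_⟩
  have hζ0 : 0 < ‖ζ‖ := by linarith
  rcases le_or_gt ‖ζ‖ (max 1 (t₀⁻¹)) with hle | hgt
  · -- small frequencies
    have h1 := hC0b a₀ ζ hζ
    rw [pow_zero, inv_one, mul_one] at h1
    refine h1.trans ?_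
    have h2 : 1 ≤ (max 1 (t₀⁻¹)) ^ (s + 1) * (‖ζ‖ ^ (s + 1))⁻¹ := by
      rw [← div_eq_mul_inv, one_le_div (by positivity)]
      exact pow_le_pow_left₀ hζ0.le hle _
    have h3 : 0 ≤ C1 * (‖ζ‖ ^ (s + 1))⁻¹ := by positivity
    nlinarith
  -- large frequencies
  have ht0 : 0 < (‖ζ‖ ^ K)⁻¹ := by positivity
  have hK1 : 1 ≤ K := by
    rcases Nat.eq_zero_or_pos K with h0 | h0
    · exfalso
      rw [h0, Nat.cast_zero, zero_mul] at hKθ
      have : (0 : ℝ) ≤ s := by positivity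
      linarith
    · exact h0
  have htt : (‖ζ‖ ^ K)⁻¹ < t₀ := by
    have h1 : t₀⁻¹ < ‖ζ‖ ^ K := by
      calc t₀⁻¹ ≤ max 1 (t₀⁻¹) := le_max_right _ _
        _ < ‖ζ‖ := hgt
        _ = ‖ζ‖ ^ 1 := (pow_one _).symm
        _ ≤ ‖ζ‖ ^ K := pow_le_pow_right₀ hζ hK1
    rw [inv_lt_comm₀ (by positivity) ht₀]
    exact h1
  have htθ : ((‖ζ‖ ^ K)⁻¹) ^ θ ≤ (‖ζ‖ ^ (s + 2))⁻¹ := by
    have h1 : ((‖ζ‖ ^ K)⁻¹) ^ θ = (‖ζ‖ ^ ((K : ℝ) * θ))⁻¹ := by
      rw [Real.inv_rpow (by positivity), ← Real.rpow_natCast, ← Real.rpow_mul hζ0.le]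
    rw [h1]
    refine inv_anti₀ (by positivity) ?_
    rw [← Real.rpow_natCast]
    refine Real.rpow_le_rpow_of_exponent_le hζ ?_
    push_cast
    exact hKθ
  have hest := est hU hu hC0 hPJ hχ hc hs (K + s) hM₁0 hMχ (fun F hF hb => hMF F hF hb) ht0
    (hS' _ ht0 htt) (a₀ - π / 2) hζ
  rw [sub_add_cancel, inv_inv] at hest
  have h1 := hell ζ ((2 * π) • ∫ x, tg a₀ ζ x • χ x • u x)
  rw [norm_smul, Real.norm_of_nonneg (by positivity : (0 : ℝ) ≤ 2 * π)] at h1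
  have hwn := norm_nonneg (∫ x, tg a₀ ζ x • χ x • u x)
  generalize ‖∫ x, tg a₀ ζ x • χ x • u x‖ = n at h1 hwn ⊢
  have h2 : c * (‖ζ‖ * n) ≤ c * (‖ζ‖ * (2 * π * n)) := by
    have h3 : n ≤ 2 * π * n := by
      have := Real.pi_gt_three
      nlinarith
    gcongr
  -- the three terms
  have T1 : ∑ i, ‖∫ x, tg (a₀ - π / 2) ζ x • fderiv ℝ χ x (stdOrthonormalBasis ℝ E i) • u x‖ ≤
      (∑ i, Ci i) * (‖ζ‖ ^ s)⁻¹ := by
    rw [Finset.sum_mul]
    exact Finset.sum_le_sum fun i _ => hCi i _ ζ hζ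
  have T2 := T2_aux (V := (volume (tsupport χ)).toReal) hζ hM₁0 hC0 hV0 htθ
  have T3 := T3_aux (K := K) (s := s) hζ hMF0 hV0
  have hPn := norm_nonneg P
  have t1 := mul_le_mul_of_nonneg_left T1 hPn
  have t2 := mul_le_mul_of_nonneg_left T2 hPn
  have t3 := mul_le_mul_of_nonneg_left T3 hPn
  have hw1 := fin_aux (s := s) hζ hc0 (h2.trans (h1.trans (hest.trans (add_le_add (add_le_add t1 t2) t3))))
  rw [← hC1] at hw1
  refine hw1.trans ?_
  have h6 : 0 ≤ C0 * (max 1 (t₀⁻¹)) ^ (s + 1) := by positivity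
  have h7 : 0 ≤ (‖ζ‖ ^ (s + 1))⁻¹ := by positivity
  nlinarith

end Vale.Agent.P207.H253
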